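import Vale.Agent.Lib.P043.Prod

/-! P043 (periodic tiling conjecture): images of product tiles under injective linear maps. -/

namespace Vale.Agent.P043

section map

variable {G H : Type} [AddCommGroup G] [AddCommGroup H]

theorem tiles_comap {φ : G →+ H} (hφ : Function.Injective φ) {F : Finset G} {A : Set H}
    (h : Tiles A (F.map ⟨φ, hφ⟩)) : Tiles (φ ⁻¹' A) F := by
  intro g
  obtain ⟨f', ⟨hf', hA⟩, huniq⟩ := h (φ g)
  obtain ⟨f, hf, rfl⟩ := Finset.mem_map.1 hf'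
  refine ⟨f, ⟨hf, ?_⟩, ?_⟩
  · show φ (g - f) ∈ A
    rw [map_sub]
    exact hA
  · rintro f2 ⟨hf2, hA2⟩
    have hA3 : φ (g - f2) ∈ A := hA2
    rw [map_sub] at hA3
    exact hφ (huniq (φ f2) ⟨Finset.mem_map.2 ⟨f2, hf2, rfl⟩, hA3⟩)

theorem per_map {φ : G →+ H} (hφ : Function.Injective φ) {m : ℕ} (hm : 0 < m)
    (hrange : ∀ h : H, ∃ x : G, φ x = m • h) {F : Finset G} {B : Set G} (hB : Tiles B F)
    (hP : Per B) : ∃ A : Set H, Tiles A (F.map ⟨φ, hφ⟩) ∧ Per A := by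
  classical
  obtain ⟨s, hs1, hs2⟩ : ∃ s : H → H, (∀ h, ∃ x, φ x = h - s h) ∧
      ∀ h x, s (h + φ x) = s h := by
    refine ⟨fun h => (QuotientAddGroup.mk h : H ⧸ φ.range).out, fun h => ?_, fun h x => ?_⟩
    · have h1 : (QuotientAddGroup.mk ((QuotientAddGroup.mk h : H ⧸ φ.range).out) : H ⧸ φ.range)
          = QuotientAddGroup.mk h := QuotientAddGroup.out_eq' _
      have h2 := QuotientAddGroup.eq.1 h1
      obtain ⟨x, hx⟩ := h2
      exact ⟨x, by rw [hx]; abel⟩
    · have h1 : (QuotientAddGroup.mk (h + φ x) : H ⧸ φ.range) = QuotientAddGroup.mk h := by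
        rw [QuotientAddGroup.eq]
        exact ⟨-x, by rw [map_neg]; abel⟩
      show (QuotientAddGroup.mk (h + φ x) : H ⧸ φ.range).out = _
      rw [h1]
  choose ρ hρ using hs1
  have hρadd : ∀ h x, ρ (h + φ x) = ρ h + x := by
    intro h x
    apply hφ
    rw [map_add, hρ, hρ, hs2]
    abel
  refine ⟨{h | ρ h ∈ B}, ?_, ?_⟩
  · intro g
    obtain ⟨f, ⟨hf, hfB⟩, huniq⟩ := hB (ρ g)
    have hkey : ∀ f, ρ (g - φ f) = ρ g - f := by
      intro f
      have := hρadd g (-f)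
      rw [map_neg, ← sub_eq_add_neg, ← sub_eq_add_neg] at this
      exact this
    refine ⟨φ f, ⟨Finset.mem_map.2 ⟨f, hf, rfl⟩, ?_⟩, ?_⟩
    · show ρ (g - φ f) ∈ B
      rw [hkey]
      exact hfB
    · rintro f' ⟨hf', hB'⟩
      obtain ⟨f2, hf2, rfl⟩ := Finset.mem_map.1 hf'
      have h1 : ρ (g - φ f2) ∈ B := hB'
      rw [hkey] at h1
      show φ f2 = φ f
      rw [huniq f2 ⟨hf2, h1⟩]
  · obtain ⟨N, hN, hper⟩ := hP
    refine ⟨m * N, Nat.mul_pos hm hN, fun a k => ?_⟩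
    obtain ⟨x, hx⟩ := hrange k
    have h1 : (m * N) • k = φ (N • x) := by
      rw [map_nsmul, hx, mul_comm, mul_smul]
    show ρ a ∈ B ↔ ρ (a + (m * N) • k) ∈ B
    rw [h1, hρadd]
    exact hper _ _

end map

/-- the integer combination map -/
def comb {n : ℕ} (v : Fin n → Fin n → ℤ) : (Fin n → ℤ) →+ (Fin n → ℤ) where
  toFun x := ∑ i, x i • v i
  map_zero' := by simp
  map_add' := by
    intro x y
    simp only [Pi.add_apply, add_smul, Finset.sum_add_distrib]

theorem comb_inj {n : ℕ} {v : Fin n → Fin n → ℤ} (hv : LinearIndependent ℤ v) :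
    Function.Injective (comb v) := by
  rw [injective_iff_map_eq_zero]
  intro x hx
  have h1 := Fintype.linearIndependent_iff.1 hv x hx
  funext i
  exact h1 i

theorem comb_mulVec {n : ℕ} (v : Fin n → Fin n → ℤ) (x : Fin n → ℤ) :
    comb v x = (Matrix.of fun i j => v j i).mulVec x := by
  funext i
  show (∑ j, x j • v j) i = _
  rw [Finset.sum_apply, Matrix.mulVec, dotProduct]
  refine Finset.sum_congr rfl fun j _ => ?_
  simp only [Pi.smul_apply, smul_eq_mul, Matrix.of_apply]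
  ring

theorem comb_range {n : ℕ} {v : Fin n → Fin n → ℤ} (hv : LinearIndependent ℤ v) :
    ∃ m : ℕ, 0 < m ∧ ∀ h : Fin n → ℤ, ∃ x, comb v x = m • h := by
  set M : Matrix (Fin n) (Fin n) ℤ := Matrix.of fun i j => v j i with hM
  have hdet : M.det ≠ 0 := by
    intro h0
    obtain ⟨x, hx0, hx⟩ := Matrix.exists_mulVec_eq_zero_iff.2 h0
    apply hx0
    have h1 : comb v x = 0 := by rw [comb_mulVec]; exact hx
    exact comb_inj hv (h1.trans (map_zero _).symm)
  have hadj : ∀ h : Fin n → ℤ, comb v (M.adjugate.mulVec h) = M.det • h := by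
    intro h
    rw [comb_mulVec, Matrix.mulVec_mulVec, Matrix.mul_adjugate, Matrix.smul_mulVec,
      Matrix.one_mulVec]
  refine ⟨M.det.natAbs, Int.natAbs_pos.2 hdet, fun h => ?_⟩
  rcases Int.natAbs_eq M.det with h1 | h1
  · refine ⟨M.adjugate.mulVec h, ?_⟩
    rw [hadj, ← natCast_zsmul, ← h1]
  · refine ⟨-M.adjugate.mulVec h, ?_⟩
    rw [map_neg, hadj, ← natCast_zsmul, ← neg_smul]
    congr 1
    omega

/-- products with respect to linearly independent integer vectors -/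
theorem lin_int {n : ℕ} {v : Fin n → Fin n → ℤ} (hv : LinearIndependent ℤ v)
    (F : Fin n → Finset ℤ) (h : ∃ A, Tiles A ((Fintype.piFinset F).map ⟨comb v, comb_inj hv⟩)) :
    ∃ A, Tiles A ((Fintype.piFinset F).map ⟨comb v, comb_inj hv⟩) ∧ Per A := by
  obtain ⟨A, hA⟩ := h
  obtain ⟨B, hB, hP⟩ := prod_int F ⟨_, tiles_comap (comb_inj hv) hA⟩
  obtain ⟨m, hm, hr⟩ := comb_range hv
  exact per_map (comb_inj hv) hm hr hB hP

end Vale.Agent.P043
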