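import Mathlib

/-! P043 (periodic tiling conjecture): product tiles. -/

namespace Vale.Agent.P043

/-- `A ⊕ F = G`: every `g` is uniquely `a + f` with `a ∈ A`, `f ∈ F` -/
def Tiles {G : Type} [AddCommGroup G] (A : Set G) (F : Finset G) : Prop :=
  ∀ g : G, ∃! f : G, f ∈ F ∧ g - f ∈ A

/-- `A` is invariant under `N G` for some `N ≥ 1` (for `G = ℤ^d`: a sublattice of full rank) -/
def Per {G : Type} [AddCommGroup G] (A : Set G) : Prop :=
  ∃ N : ℕ, 0 < N ∧ ∀ a h : G, a ∈ A ↔ a + N • h ∈ A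

section prod

variable {ι : Type} [Fintype ι] [DecidableEq ι] {G : ι → Type} [∀ i, AddCommGroup (G i)]

/-- the slice of a tiling along a coordinate axis -/
def slice (A : Set (∀ i, G i)) (F : ∀ i, Finset (G i)) (i : ι) : Set (G i) :=
  {a | ∃ b ∈ A, b i = a ∧ ∀ j, j ≠ i → -b j ∈ F j}

theorem slice_tiles {A : Set (∀ i, G i)} {F : ∀ i, Finset (G i)}
    (h : Tiles A (Fintype.piFinset F)) (i : ι) : Tiles (slice A F i) (F i) := by
  intro g
  obtain ⟨f, ⟨hfF, hfA⟩, huniq⟩ := h (Pi.single i g)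
  rw [Fintype.mem_piFinset] at hfF
  refine ⟨f i, ⟨hfF i, ⟨_, hfA, by simp, ?_⟩⟩, ?_⟩
  · intro j hj
    rw [Pi.sub_apply, Pi.single_eq_of_ne hj, zero_sub, neg_neg]
    exact hfF j
  · rintro f0 ⟨hf0, b, hbA, hbi, hbj⟩
    have h1 := huniq (Function.update (fun j => -b j) i f0) ⟨?_, ?_⟩
    · have h2 := congrFun h1 i
      rwa [Function.update_self] at h2
    · rw [Fintype.mem_piFinset]
      intro j
      rcases eq_or_ne j i with hj | hj
      · subst hj
        rwa [Function.update_self]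
      · rw [Function.update_of_ne hj]
        exact hbj j hj
    · have h3 : Pi.single i g - Function.update (fun j => -b j) i f0 = b := by
        funext j
        rcases eq_or_ne j i with hj | hj
        · subst hj
          rw [Pi.sub_apply, Pi.single_eq_same, Function.update_self, hbi]
        · rw [Pi.sub_apply, Pi.single_eq_of_ne hj, Function.update_of_ne hj, zero_sub, neg_neg]
      rw [h3]
      exact hbA

omit [Fintype ι] in
theorem slice_per {A : Set (∀ i, G i)} (F : ∀ i, Finset (G i)) (h : Per A) (i : ι) :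
    Per (slice A F i) := by
  obtain ⟨N, hN, hper⟩ := h
  have key : ∀ a h' : G i, a ∈ slice A F i → a + N • h' ∈ slice A F i := by
    rintro a h' ⟨b, hbA, hbi, hbj⟩
    refine ⟨b + N • Pi.single i h', (hper b (Pi.single i h')).1 hbA, ?_, ?_⟩
    · rw [Pi.add_apply, Pi.smul_apply, Pi.single_eq_same, hbi]
    · intro j hj
      rw [Pi.add_apply, Pi.smul_apply, Pi.single_eq_of_ne hj, smul_zero, add_zero]
      exact hbj j hj
  refine ⟨N, hN, fun a h' => ⟨key a h', fun h1 => ?_⟩⟩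
  have h2 := key _ (-h') h1
  rwa [smul_neg, add_neg_cancel_right] at h2

theorem prod_tiles {F : ∀ i, Finset (G i)} {A : ∀ i, Set (G i)} (h : ∀ i, Tiles (A i) (F i)) :
    Tiles {b : ∀ i, G i | ∀ i, b i ∈ A i} (Fintype.piFinset F) := by
  intro g
  choose f hf huniq using fun i => h i (g i)
  refine ⟨f, ⟨Fintype.mem_piFinset.2 fun i => (hf i).1, fun i => (hf i).2⟩, ?_⟩
  rintro f' ⟨h1, h2⟩
  rw [Fintype.mem_piFinset] at h1
  funext i
  exact huniq i (f' i) ⟨h1 i, h2 i⟩

omit [DecidableEq ι] in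
theorem prod_per {A : ∀ i, Set (G i)} (h : ∀ i, Per (A i)) :
    Per {b : ∀ i, G i | ∀ i, b i ∈ A i} := by
  choose N hN hper using h
  refine ⟨∏ i, N i, Finset.prod_pos fun i _ => hN i, fun a h' => ?_⟩
  have key : ∀ i, a i ∈ A i ↔ a i + (∏ j, N j) • h' i ∈ A i := by
    intro i
    obtain ⟨M, hM⟩ := Finset.dvd_prod_of_mem N (Finset.mem_univ i)
    rw [hM, mul_smul]
    exact hper i (a i) (M • h' i)
  constructor
  · intro h1 i
    exact (key i).1 (h1 i)
  · intro h1 i
    exact (key i).2 (h1 i)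

/-- a product has a tiling iff every factor has -/
theorem exists_tiles_iff (F : ∀ i, Finset (G i)) :
    (∃ A, Tiles A (Fintype.piFinset F)) ↔ ∀ i, ∃ A, Tiles A (F i) := by
  constructor
  · rintro ⟨A, hA⟩ i
    exact ⟨_, slice_tiles hA i⟩
  · intro h
    choose A hA using h
    exact ⟨_, prod_tiles hA⟩

/-- a product has a periodic tiling iff every factor has -/
theorem exists_per_iff (F : ∀ i, Finset (G i)) :
    (∃ A, Tiles A (Fintype.piFinset F) ∧ Per A) ↔ ∀ i, ∃ A, Tiles A (F i) ∧ Per A := by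
  constructor
  · rintro ⟨A, hA, hP⟩ i
    exact ⟨_, slice_tiles hA i, slice_per F hP i⟩
  · intro h
    choose A hA hP using h
    exact ⟨_, prod_tiles hA, prod_per hP⟩

end prod

/-! ### dimension one -/

theorem int_periodic {A : Set ℤ} {F : Finset ℤ} (h : Tiles A F) :
    ∃ A' : Set ℤ, Tiles A' F ∧ Per A' := by
  classical
  have hne : F.Nonempty := by
    obtain ⟨f, hf, _⟩ := h 0
    exact ⟨f, hf.1⟩
  obtain ⟨m0, hm0, hmin⟩ : ∃ m0 ∈ F, ∀ f ∈ F, m0 ≤ f :=
    ⟨F.min' hne, F.min'_mem hne, fun f hf => F.min'_le f hf⟩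
  obtain ⟨M, hM⟩ : ∃ M : ℤ, ∀ f ∈ F, f ≤ M := ⟨F.max' hne, fun f hf => F.le_max' f hf⟩
  obtain ⟨w, hw⟩ : ∃ w : ℕ, M - m0 ≤ w := ⟨(M - m0).toNat, Int.self_le_toNat _⟩
  -- membership is determined by the last w values
  have hdet : ∀ n : ℤ, n ∈ A ↔ ¬ ∃ f ∈ F, f ≠ m0 ∧ n + m0 - f ∈ A := by
    intro n
    obtain ⟨f, ⟨hfF, hfA⟩, huniq⟩ := h (n + m0)
    constructor
    · rintro hn ⟨f', hf', hne', hA'⟩
      have h1 := huniq f' ⟨hf', hA'⟩
      have h2 := huniq m0 ⟨hm0, by simpa using hn⟩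
      exact hne' (h1.trans h2.symm)
    · intro hno
      by_cases hfm : f = m0
      · rw [hfm] at hfA
        simpa using hfA
      · exact absurd ⟨f, hfF, hfm, hfA⟩ hno
  obtain ⟨p, q, hpq, hst⟩ := Finite.exists_ne_map_eq_of_infinite
    (fun n : ℕ => fun k : Fin w => decide ((n : ℤ) - 1 - (k : ℕ) ∈ A))
  wlog hlt : p < q generalizing p q
  · exact this q p hpq.symm hst.symm (lt_of_le_of_ne (not_lt.1 hlt) hpq.symm)
  have hwin : ∀ k : ℕ, k < w → ((p : ℤ) - 1 - k ∈ A ↔ (q : ℤ) - 1 - k ∈ A) := by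
    intro k hk
    have := congrFun hst ⟨k, hk⟩
    simpa using this
  have hfor : ∀ t : ℕ, ((p : ℤ) - w + t ∈ A ↔ (q : ℤ) - w + t ∈ A) := by
    intro t
    induction t using Nat.strong_induction_on with
    | _ t ih =>
      rcases Nat.lt_or_ge t w with ht | ht
      · have := hwin (w - 1 - t) (by omega)
        have e1 : (p : ℤ) - 1 - ((w - 1 - t : ℕ) : ℤ) = (p : ℤ) - w + t := by omega
        have e2 : (q : ℤ) - 1 - ((w - 1 - t : ℕ) : ℤ) = (q : ℤ) - w + t := by omega
        rwa [e1, e2] at this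
      · rw [hdet, hdet]
        have key : ∀ f ∈ F, f ≠ m0 →
            ((p : ℤ) - w + t + m0 - f ∈ A ↔ (q : ℤ) - w + t + m0 - f ∈ A) := by
          intro f hf hfm
          have h1 := hmin f hf
          have h2 := hM f hf
          have h3 : m0 < f := lt_of_le_of_ne h1 (Ne.symm hfm)
          obtain ⟨s, hs⟩ : ∃ s : ℕ, (s : ℤ) = t + m0 - f :=
            ⟨(t + m0 - f).toNat, Int.toNat_of_nonneg (by omega)⟩
          have h4 := ih s (by omega)
          have e1 : (p : ℤ) - w + t + m0 - f = (p : ℤ) - w + s := by omega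
          have e2 : (q : ℤ) - w + t + m0 - f = (q : ℤ) - w + s := by omega
          rwa [e1, e2]
        constructor
        · rintro hno ⟨f, hf, hfm, hA'⟩
          exact hno ⟨f, hf, hfm, (key f hf hfm).2 hA'⟩
        · rintro hno ⟨f, hf, hfm, hA'⟩
          exact hno ⟨f, hf, hfm, (key f hf hfm).1 hA'⟩
  set N : ℕ := q - p with hN
  have hN0 : 0 < N := by omega
  have hstep : ∀ x : ℤ, (p : ℤ) - w ≤ x → (x ∈ A ↔ x + N ∈ A) := by
    intro x hx
    have h1 := hfor (x - (p - w)).toNat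
    have e0 : (((x - (p - w)).toNat : ℕ) : ℤ) = x - (p - w) := Int.toNat_of_nonneg (by omega)
    rw [e0] at h1
    have e1 : (p : ℤ) - w + (x - (p - w)) = x := by ring
    have e2 : (q : ℤ) - w + (x - (p - w)) = x + N := by
      rw [hN]
      push_cast [Nat.cast_sub hlt.le]
      ring
    rwa [e1, e2] at h1
  have hmany : ∀ (j : ℕ) (x : ℤ), (p : ℤ) - w ≤ x → (x ∈ A ↔ x + j * N ∈ A) := by
    intro j
    induction j with
    | zero => intro x _; simp
    | succ j ih =>
      intro x hx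
      rw [ih x hx, hstep (x + j * N) (by nlinarith [Int.natCast_nonneg j, Int.natCast_nonneg N, mul_nonneg (Int.natCast_nonneg j) (Int.natCast_nonneg N)])]
      have : x + j * N + N = x + ((j + 1 : ℕ) : ℤ) * N := by push_cast; ring
      rw [this]
  -- the periodic continuation
  have hcmp : ∀ (j j' : ℕ) (x : ℤ), (p : ℤ) - w ≤ x + j * N → (p : ℤ) - w ≤ x + j' * N →
      (x + j * N ∈ A ↔ x + j' * N ∈ A) := by
    have base : ∀ (j j' : ℕ) (x : ℤ), j ≤ j' → (p : ℤ) - w ≤ x + j * N →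
        (x + j * N ∈ A ↔ x + j' * N ∈ A) := by
      intro j j' x hjj hx
      rw [hmany (j' - j) (x + j * N) hx]
      have : x + j * N + ((j' - j : ℕ) : ℤ) * N = x + j' * N := by
        push_cast [Nat.cast_sub hjj]
        ring
      rw [this]
    intro j j' x hx hx'
    rcases le_total j j' with hjj | hjj
    · exact base j j' x hjj hx
    · exact (base j' j x hjj hx').symm
  set B : Set ℤ := {x | ∃ j : ℕ, (p : ℤ) - w ≤ x + j * N ∧ x + j * N ∈ A} with hB
  have hBmem : ∀ (j : ℕ) (x : ℤ), (p : ℤ) - w ≤ x + j * N → (x ∈ B ↔ x + j * N ∈ A) := by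
    intro j x hx
    constructor
    · rintro ⟨j', hj', hA'⟩
      exact (hcmp j' j x hj' hx).1 hA'
    · intro hA'
      exact ⟨j, hx, hA'⟩
  have hlarge : ∀ y : ℤ, ∃ j : ℕ, (p : ℤ) - w ≤ y + j * N := by
    intro y
    refine ⟨((p : ℤ) - w - y).toNat, ?_⟩
    have h1 := Int.self_le_toNat ((p : ℤ) - w - y)
    have h2 : (1 : ℤ) ≤ N := by exact_mod_cast hN0
    nlinarith [Int.natCast_nonneg ((p : ℤ) - w - y).toNat]
  refine ⟨B, ?_, N, hN0, ?_⟩
  · intro g
    obtain ⟨J, hJ⟩ := hlarge (g - M)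
    have hfB : ∀ f ∈ F, (g - f ∈ B ↔ g + J * N - f ∈ A) := by
      intro f hf
      have h1 := hM f hf
      rw [hBmem J (g - f) (by linarith)]
      have : g - f + J * N = g + J * N - f := by ring
      rw [this]
    obtain ⟨f, ⟨hf, hfA⟩, huniq⟩ := h (g + J * N)
    refine ⟨f, ⟨hf, (hfB f hf).2 hfA⟩, ?_⟩
    rintro f' ⟨hf', hB'⟩
    exact huniq f' ⟨hf', (hfB f' hf').1 hB'⟩
  · intro a h'
    obtain ⟨j, hj⟩ := hlarge (a - |h'| * N)
    have hN1 : (0 : ℤ) ≤ N := Int.natCast_nonneg N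
    have h1 := neg_abs_le h'
    have h2 := abs_nonneg h'
    have ha : (p : ℤ) - w ≤ a + j * N := by nlinarith
    have hah : (p : ℤ) - w ≤ a + h' * N + j * N := by nlinarith
    obtain ⟨J, hJ⟩ : ∃ J : ℕ, (J : ℤ) = j + |h'| + h' :=
      ⟨(j + |h'| + h').toNat, Int.toNat_of_nonneg (by linarith [Int.natCast_nonneg j])⟩
    obtain ⟨K, hK⟩ : ∃ K : ℕ, (K : ℤ) = j + |h'| :=
      ⟨(j + |h'|).toNat, Int.toNat_of_nonneg (by linarith [Int.natCast_nonneg j])⟩
    have e1 : (N : ℕ) • h' = h' * N := by rw [nsmul_eq_mul]; ring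
    rw [e1, hBmem J a (by rw [hJ]; nlinarith), hBmem K (a + h' * N) (by rw [hK]; nlinarith)]
    have e2 : a + J * N = a + h' * N + K * N := by rw [hJ, hK]; ring
    rw [e2]

/-- every product of finite sets of integers which tiles `ℤ ^ d` tiles it periodically -/
theorem prod_int {ι : Type} [Fintype ι] [DecidableEq ι] (F : ι → Finset ℤ)
    (h : ∃ A : Set (ι → ℤ), Tiles A (Fintype.piFinset F)) :
    ∃ A : Set (ι → ℤ), Tiles A (Fintype.piFinset F) ∧ Per A := by
  rw [exists_per_iff]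
  intro i
  obtain ⟨A, hA⟩ := (exists_tiles_iff F).1 h i
  exact int_periodic hA

end Vale.Agent.P043
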